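import Vale.Agent.P290.H726.Dens

/-!
# P290, package F3-RANK

An even unimodular symmetric integral matrix with three pairwise orthogonal positive real vectors
has size at least `4`; if in addition every nonzero vector orthogonal to the three is negative,
then the size is at least `6`. (Odd size is impossible, and in size `4` the determinant is `1`
modulo `4`.)
-/

namespace Vale.Agent.P290.H329

open Vale.Agent.P290.H726

section parity

variable {N : ℕ} (M : Matrix (Fin N) (Fin N) ℤ)

/-- The skew integral matrix congruent to `M` modulo `2`. -/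
def skew : Matrix (Fin N) (Fin N) ℤ :=
  Matrix.of fun i j => if i < j then M i j else if j < i then - M i j else 0

theorem skew_transpose (hM : ∀ i j, M i j = M j i) : (skew M).transpose = - skew M := by
  ext i j
  simp only [skew, Matrix.transpose_apply, Matrix.of_apply, Matrix.neg_apply]
  rcases lt_trichotomy i j with h | h | h
  · rw [if_neg (not_lt.mpr h.le), if_pos h, if_pos h, hM]
  · subst h; simp
  · rw [if_pos h, if_neg (not_lt.mpr h.le), if_pos h, hM]; simp

theorem skew_det (hM : ∀ i j, M i j = M j i) (hN : Odd N) : (skew M).det = 0 := by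
  have h1 : (skew M).det = (- skew M).det := by
    rw [← skew_transpose M hM, Matrix.det_transpose]
  rw [Matrix.det_neg, Fintype.card_fin, hN.neg_one_pow] at h1
  linarith

theorem skew_map (hev : ∀ i, Even (M i i)) :
    (skew M).map (Int.castRingHom (ZMod 2)) = M.map (Int.castRingHom (ZMod 2)) := by
  ext i j
  simp only [skew, Matrix.map_apply, Matrix.of_apply, Int.coe_castRingHom]
  split_ifs with h h'
  · rfl
  · push_cast
    exact ZModModule.neg_eq_self _
  · have hij : i = j := le_antisymm (not_lt.mp h') (not_lt.mp h)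
    subst hij
    obtain ⟨a, ha⟩ := hev i
    rw [ha]; push_cast
    rw [CharTwo.add_self_eq_zero]

theorem det_even_of_odd (hM : ∀ i j, M i j = M j i) (hev : ∀ i, Even (M i i)) (hN : Odd N) :
    Even M.det := by
  have h1 : (Int.castRingHom (ZMod 2)) M.det = (Int.castRingHom (ZMod 2)) (skew M).det := by
    rw [RingHom.map_det, RingHom.map_det, RingHom.mapMatrix_apply, RingHom.mapMatrix_apply,
      skew_map M hev]
  rw [skew_det M hM hN, map_zero] at h1
  have h2 : ((M.det : ℤ) : ZMod 2) = 0 := h1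
  exact (ZMod.intCast_eq_zero_iff_even).mp h2

end parity

section four

/-- The expansion of a determinant of size `4`. -/
theorem det_expand (M : Matrix (Fin 4) (Fin 4) ℤ) :
    M.det = M 0 0 * (M 1 1 * (M 2 2 * M 3 3 - M 2 3 * M 3 2)
      - M 1 2 * (M 2 1 * M 3 3 - M 2 3 * M 3 1) + M 1 3 * (M 2 1 * M 3 2 - M 2 2 * M 3 1))
    - M 0 1 * (M 1 0 * (M 2 2 * M 3 3 - M 2 3 * M 3 2)
      - M 1 2 * (M 2 0 * M 3 3 - M 2 3 * M 3 0) + M 1 3 * (M 2 0 * M 3 2 - M 2 2 * M 3 0))
    + M 0 2 * (M 1 0 * (M 2 1 * M 3 3 - M 2 3 * M 3 1)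
      - M 1 1 * (M 2 0 * M 3 3 - M 2 3 * M 3 0) + M 1 3 * (M 2 0 * M 3 1 - M 2 1 * M 3 0))
    - M 0 3 * (M 1 0 * (M 2 1 * M 3 2 - M 2 2 * M 3 1)
      - M 1 1 * (M 2 0 * M 3 2 - M 2 2 * M 3 0) + M 1 2 * (M 2 0 * M 3 1 - M 2 1 * M 3 0)) := by
  rw [Matrix.det_succ_row_zero]
  simp only [Fin.sum_univ_four, Matrix.det_fin_three, Matrix.submatrix_apply]
  rw [show (0 : Fin 4).succAbove 0 = 1 from rfl, show (0 : Fin 4).succAbove 1 = 2 from rfl,
    show (0 : Fin 4).succAbove 2 = 3 from rfl, show (1 : Fin 4).succAbove 0 = 0 from rfl,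
    show (1 : Fin 4).succAbove 1 = 2 from rfl, show (1 : Fin 4).succAbove 2 = 3 from rfl,
    show (2 : Fin 4).succAbove 0 = 0 from rfl, show (2 : Fin 4).succAbove 1 = 1 from rfl,
    show (2 : Fin 4).succAbove 2 = 3 from rfl, show (3 : Fin 4).succAbove 0 = 0 from rfl,
    show (3 : Fin 4).succAbove 1 = 1 from rfl, show (3 : Fin 4).succAbove 2 = 2 from rfl,
    show (Fin.succ 0 : Fin 4) = 1 from rfl, show (Fin.succ 1 : Fin 4) = 2 from rfl,
    show (Fin.succ 2 : Fin 4) = 3 from rfl, show ((0 : Fin 4) : ℕ) = 0 from rfl,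
    show ((1 : Fin 4) : ℕ) = 1 from rfl, show ((2 : Fin 4) : ℕ) = 2 from rfl,
    show ((3 : Fin 4) : ℕ) = 3 from rfl]
  ring

theorem det_four (M : Matrix (Fin 4) (Fin 4) ℤ) (hM : ∀ i j, M i j = M j i)
    (hev : ∀ i, Even (M i i)) :
    ∃ X P : ℤ, M.det = 4 * X + P ^ 2 := by
  obtain ⟨a, ha⟩ := hev 0
  obtain ⟨e, he⟩ := hev 1
  obtain ⟨h, hh⟩ := hev 2
  obtain ⟨j, hj⟩ := hev 3
  refine ⟨4 * a * e * h * j - a * e * (M 2 3) ^ 2 - a * h * (M 1 3) ^ 2 - a * j * (M 1 2) ^ 2
    - e * h * (M 0 3) ^ 2 - e * j * (M 0 2) ^ 2 - h * j * (M 0 1) ^ 2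
    + a * (M 1 2) * (M 1 3) * (M 2 3) + e * (M 0 2) * (M 0 3) * (M 2 3)
    + h * (M 0 1) * (M 0 3) * (M 1 3) + j * (M 0 1) * (M 0 2) * (M 1 2)
    - (M 0 1) * (M 0 3) * (M 1 2) * (M 2 3),
    M 0 1 * M 2 3 - M 0 2 * M 1 3 + M 0 3 * M 1 2, ?_⟩
  have h10 : M 1 0 = M 0 1 := hM _ _
  have h20 : M 2 0 = M 0 2 := hM _ _
  have h30 : M 3 0 = M 0 3 := hM _ _
  have h21 : M 2 1 = M 1 2 := hM _ _
  have h31 : M 3 1 = M 1 3 := hM _ _
  have h32 : M 3 2 = M 2 3 := hM _ _
  rw [det_expand, h10, h20, h30, h21, h31, h32, ha, he, hh, hj]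
  ring

/-- A unimodular even matrix of size four has determinant one. -/
theorem det_four_eq_one (M : Matrix (Fin 4) (Fin 4) ℤ) (hM : ∀ i j, M i j = M j i)
    (hev : ∀ i, Even (M i i)) (hdet : IsUnit M.det) : M.det = 1 := by
  obtain ⟨X, P, h⟩ := det_four M hM hev
  rcases Int.isUnit_iff.mp hdet with h1 | h1
  · exact h1
  · exfalso
    rw [h1] at h
    rcases Int.even_or_odd P with ⟨q, hq⟩ | ⟨q, hq⟩
    · subst hq
      ring_nf at h
      omega
    · subst hq
      ring_nf at h
      omega

end four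

section real

variable {N : ℕ} (M : Matrix (Fin N) (Fin N) ℤ)

theorem bil_sum_left {κ : Type*} (s : Finset κ) (f : κ → Fin N → ℝ) (y : Fin N → ℝ) :
    bil M (∑ k ∈ s, f k) y = ∑ k ∈ s, bil M (f k) y := by
  classical
  induction s using Finset.induction_on with
  | empty => simp [bil_zero_left]
  | insert a s ha ih => rw [Finset.sum_insert ha, Finset.sum_insert ha, bil_add_left, ih]

/-- Pairwise orthogonal nonisotropic vectors are linearly independent. -/
theorem linInd_of_orth {m : ℕ} (v : Fin m → Fin N → ℝ) (hne : ∀ i, bil M (v i) (v i) ≠ 0)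
    (hort : ∀ i j, i ≠ j → bil M (v i) (v j) = 0) : LinearIndependent ℝ v := by
  rw [linearIndependent_iff']
  intro s g hg i hi
  have h1 : bil M (∑ k ∈ s, g k • v k) (v i) = 0 := by rw [hg, bil_zero_left]
  rw [bil_sum_left, Finset.sum_eq_single i] at h1
  · rw [bil_smul_left] at h1
    exact (mul_eq_zero.mp h1).resolve_right (hne i)
  · intro b _ hb
    rw [bil_smul_left, hort b i hb, mul_zero]
  · intro h; exact absurd hi h

theorem le_of_orth {m : ℕ} (v : Fin m → Fin N → ℝ) (hne : ∀ i, bil M (v i) (v i) ≠ 0)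
    (hort : ∀ i j, i ≠ j → bil M (v i) (v j) = 0) : m ≤ N := by
  have := (linInd_of_orth M v hne hort).fintype_card_le_finrank
  simpa using this

theorem not_odd (hM : ∀ i j, M i j = M j i) (hev : ∀ i, Even (M i i)) (hdet : IsUnit M.det) :
    ¬ Odd N := by
  intro hN
  have h := det_even_of_odd M hM hev hN
  rcases Int.isUnit_iff.mp hdet with h1 | h1 <;> rw [h1] at h <;> revert h <;> decide

/-- Three positive directions: the rank of an even unimodular form is at least four. -/
theorem rank_ge_four (hM : ∀ i j, M i j = M j i) (hev : ∀ i, Even (M i i))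
    (hdet : IsUnit M.det) (v : Fin 3 → Fin N → ℝ) (hpos : ∀ i, 0 < bil M (v i) (v i))
    (hort : ∀ i j, i ≠ j → bil M (v i) (v j) = 0) : 4 ≤ N := by
  have h3 : 3 ≤ N := le_of_orth M v (fun i => (hpos i).ne') hort
  have hodd := not_odd M hM hev hdet
  rcases Nat.lt_or_ge N 4 with h | h
  · exfalso
    have : N = 3 := by omega
    subst this
    exact hodd (by decide)
  · exact h

/-- In rank at least four there is a nonzero vector orthogonal to three given ones. -/
theorem exists_orth (hN : 4 ≤ N) (v : Fin 3 → Fin N → ℝ) :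
    ∃ w : Fin N → ℝ, w ≠ 0 ∧ ∀ i, bil M (v i) w = 0 := by
  let f : (Fin N → ℝ) →ₗ[ℝ] (Fin 3 → ℝ) :=
    { toFun := fun w i => bil M (v i) w
      map_add' := fun x y => by ext i; simp [bil_add_right]
      map_smul' := fun a x => by ext i; simp [bil_smul_right] }
  have h1 : Module.finrank ℝ (Fin 3 → ℝ) < Module.finrank ℝ (Fin N → ℝ) := by
    simp; omega
  have h2 : f.ker ≠ ⊥ := LinearMap.ker_ne_bot_of_finrank_lt h1
  obtain ⟨w, hw, hw0⟩ := (Submodule.ne_bot_iff _).mp h2
  exact ⟨w, hw0, fun i => congrFun (LinearMap.mem_ker.mp hw) i⟩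

/-- The orthogonal basis argument: in size four, three positive vectors and a negative one, all
pairwise orthogonal, force the determinant to be negative. -/
theorem det_neg_of_orth (M : Matrix (Fin 4) (Fin 4) ℤ) (u : Fin 4 → Fin 4 → ℝ)
    (hort : ∀ i j, i ≠ j → bil M (u i) (u j) = 0)
    (h0 : 0 < bil M (u 0) (u 0)) (h1 : 0 < bil M (u 1) (u 1)) (h2 : 0 < bil M (u 2) (u 2))
    (h3 : bil M (u 3) (u 3) < 0) : M.det < 0 := by
  let A : Matrix (Fin 4) (Fin 4) ℝ := M.map (Int.castRingHom ℝ)
  let Q : Matrix (Fin 4) (Fin 4) ℝ := Matrix.of u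
  have hQ : Q * A * Q.transpose = Matrix.diagonal (fun i => bil M (u i) (u i)) := by
    ext i j
    have hij : (Q * A * Q.transpose) i j = bil M (u i) (u j) := by
      simp only [Matrix.mul_apply, Matrix.transpose_apply, bil, Finset.sum_mul]
      rw [Finset.sum_comm]
      refine Finset.sum_congr rfl fun a _ => Finset.sum_congr rfl fun b _ => ?_
      simp only [Q, A, Matrix.of_apply, Matrix.map_apply, Int.coe_castRingHom]
      ring
    rw [hij]
    by_cases h : i = j
    · subst h; simp
    · rw [Matrix.diagonal_apply_ne _ h, hort i j h]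
  have hdet := congrArg Matrix.det hQ
  rw [Matrix.det_mul, Matrix.det_mul, Matrix.det_transpose, Matrix.det_diagonal,
    Fin.prod_univ_four] at hdet
  have hA : A.det = ((M.det : ℤ) : ℝ) := by
    have := (RingHom.map_det (Int.castRingHom ℝ) M).symm
    rw [RingHom.mapMatrix_apply] at this
    exact this
  have hneg : Q.det * A.det * Q.det < 0 := by
    rw [hdet]
    exact mul_neg_of_pos_of_neg (mul_pos (mul_pos h0 h1) h2) h3
  have hAneg : A.det < 0 := by
    by_contra hc
    push Not at hc
    have : 0 ≤ Q.det * A.det * Q.det := by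
      have h5 : Q.det * A.det * Q.det = A.det * (Q.det * Q.det) := by ring
      rw [h5]
      exact mul_nonneg hc (mul_self_nonneg _)
    linarith
  rw [hA] at hAneg
  exact_mod_cast hAneg

/-- **F3-RANK.** An even unimodular integral form with three pairwise orthogonal positive real
vectors, such that every nonzero vector orthogonal to the three is negative, has rank at least
six, and it has a negative vector. -/
theorem rank_ge_six (hM : ∀ i j, M i j = M j i) (hev : ∀ i, Even (M i i))
    (hdet : IsUnit M.det) (v : Fin 3 → Fin N → ℝ) (hpos : ∀ i, 0 < bil M (v i) (v i))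
    (hort : ∀ i j, i ≠ j → bil M (v i) (v j) = 0)
    (hneg : ∀ w : Fin N → ℝ, w ≠ 0 → (∀ i, bil M (v i) w = 0) → bil M w w < 0) :
    6 ≤ N ∧ ∃ w : Fin N → ℝ, bil M w w < 0 := by
  have h4 := rank_ge_four M hM hev hdet v hpos hort
  obtain ⟨w, hw0, hw⟩ := exists_orth M h4 v
  have hwneg := hneg w hw0 hw
  refine ⟨?_, w, hwneg⟩
  have hodd := not_odd M hM hev hdet
  have hN4 : N ≠ 4 := by
    intro h
    subst h
    have hd := det_four_eq_one M hM hev hdet
    have hs : ∀ x y : Fin 4 → ℝ, bil M x y = bil M y x := fun x y => bil_symm M hM x y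
    have := det_neg_of_orth M ![v 0, v 1, v 2, w] ?_ (by simpa using hpos 0)
      (by simpa using hpos 1) (by simpa using hpos 2) (by simpa using hwneg)
    · omega
    · intro i j hij
      have h01 := hort 0 1 (by decide)
      have h02 := hort 0 2 (by decide)
      have h12 := hort 1 2 (by decide)
      have h10 := hort 1 0 (by decide)
      have h20 := hort 2 0 (by decide)
      have h21 := hort 2 1 (by decide)
      have k0 := hw 0
      have k1 := hw 1
      have k2 := hw 2
      have l0 := (hs w (v 0)).trans k0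
      have l1 := (hs w (v 1)).trans k1
      have l2 := (hs w (v 2)).trans k2
      fin_cases i <;> fin_cases j <;> simp_all
  have : N ≠ 5 := by
    intro h; subst h; exact hodd (by decide)
  omega

end real

end Vale.Agent.P290.H329
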